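import Vale.Agent.P240.R2.H986.Up

/-!
P240, row LN (helper296, helper684): the bracket identity `β(u, l, g) = ± β(u, β(g), l)`
for the iterated super commutators of letters (helper209).
-/

set_option autoImplicit false

namespace Vale.Agent.P240.R2.H209

open H986

universe w w'

variable {L : Type w} {K : Type w'} [Field K]

/-- linearity of `ev` in the function, in lambda form -/
lemma ev_lin (c : K) (A B : List L → K) (g u v : List L) :
    ev (fun w => A w + c * B w) g u v = ev A g u v + c * ev B g u v := by
  have h1 : (fun w => A w + c * B w) = A + c • B := by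
    funext w; simp
  rw [h1, ev_add, ev_smul]

/-- shift of the suffix -/
lemma ev_shiftR (z : List L → K) (l : L) (g : List L) : ∀ u v,
    ev (fun w => z (w ++ [l])) g u v = ev z g u (v ++ [l]) := by
  induction g with
  | nil => intro u v; simp [ev_nil]
  | cons a g ih =>
    intro u v
    rcases g.eq_nil_or_concat' with rfl | h
    · simp [ev_single]
    · have hg : g ≠ [] := by rcases h with ⟨a, b, rfl⟩; simp
      rw [ev_cons _ _ hg, ev_cons _ _ hg, ih, ih]
      simp

/-- the context -/
lemma ev_ctx (z : List L → K) (p q : List L) (g : List L) : ∀ u v,
    ev (fun w => z (p ++ (w ++ q))) g u v = ev z g (p ++ u) (v ++ q) := by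
  induction g with
  | nil => intro u v; simp [ev_nil]
  | cons a g ih =>
    intro u v
    rcases g.eq_nil_or_concat' with rfl | h
    · simp [ev_single]
    · have hg : g ≠ [] := by rcases h with ⟨a, b, rfl⟩; simp
      rw [ev_cons _ _ hg, ev_cons _ _ hg, ih, ih]
      simp

/-- Jacobi: `β(β(g), m) = β(g) β(m) - (-1)^(|g||m|) β(m) β(g)` -/
lemma ev_jac (z : List L → K) (g : List L) (hg : g ≠ []) : ∀ (m : List L), m ≠ [] →
    ∀ p q : List L,
    ev (fun w => ev z (w ++ m) p q) g [] [] =
      ev (fun w => ev z m (p ++ w) q) g [] []
        - (-1) ^ (g.length * m.length) * ev (fun w => ev z m p (w ++ q)) g [] [] := by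
  induction g with
  | nil => exact absurd rfl hg
  | cons a g ih =>
    intro m hm p q
    rcases eq_or_ne g [] with rfl | hg'
    · simp only [ev_single, List.nil_append, List.singleton_append, List.length_singleton,
        one_mul]
      rw [ev_cons _ _ hm, pow_succ]
      ring
    · have J := ih hg'
      -- left-hand side, first part
      have e1 : ev (fun w => ev z (w ++ m) p q) g [a] [] =
          ev (fun w => ev z (w ++ m) (p ++ [a]) q) g [] []
            + (-1) ^ (g.length + m.length + 1) *
              ev (fun w => ev z (w ++ m) p (a :: q)) g [] [] := by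
        have h1 := ev_shift (fun w => ev z (w ++ m) p q) a g [] []
        rw [← h1, ← ev_lin]
        refine ev_congr g [] [] fun w hw => ?_
        have hl : w.length = g.length := by simpa using hw.length_eq
        have hne : w ++ m ≠ [] := by simp [hm]
        rw [List.cons_append, ev_cons _ _ hne, List.length_append, hl]
      have e2 : ev (fun w => ev z (w ++ m) p q) g [] [a] =
          ev (fun w => ev z (w ++ (a :: m)) p q) g [] [] := by
        have h1 := ev_shiftR (fun w => ev z (w ++ m) p q) a g [] []
        simp only [List.nil_append] at h1
        rw [← h1]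
        refine ev_congr g [] [] fun w _ => ?_
        simp
      have e3 : ev (fun w => ev z (a :: m) (p ++ w) q) g [] [] =
          ev (fun w => ev z m (p ++ (w ++ [a])) q) g [] []
            + (-1) ^ (m.length + 1) * ev (fun w => ev z m (p ++ w) (a :: q)) g [] [] := by
        rw [← ev_lin]
        refine ev_congr g [] [] fun w _ => ?_
        rw [ev_cons _ _ hm, List.append_assoc]
      have e4 : ev (fun w => ev z (a :: m) p (w ++ q)) g [] [] =
          ev (fun w => ev z m (p ++ [a]) (w ++ q)) g [] []
            + (-1) ^ (m.length + 1) * ev (fun w => ev z m p (a :: (w ++ q))) g [] [] := by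
        rw [← ev_lin]
        refine ev_congr g [] [] fun w _ => ?_
        rw [ev_cons _ _ hm]
      -- right-hand side
      have e5 : ev (fun w => ev z m (p ++ w) q) g [a] [] =
          ev (fun w => ev z m (p ++ [a] ++ w) q) g [] [] := by
        have h1 := ev_shift (fun w => ev z m (p ++ w) q) a g [] []
        rw [← h1]
        refine ev_congr g [] [] fun w _ => ?_
        simp
      have e6 : ev (fun w => ev z m (p ++ w) q) g [] [a] =
          ev (fun w => ev z m (p ++ (w ++ [a])) q) g [] [] := by
        have h1 := ev_shiftR (fun w => ev z m (p ++ w) q) a g [] []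
        simp only [List.nil_append] at h1
        rw [← h1]
      have e7 : ev (fun w => ev z m p (w ++ q)) g [a] [] =
          ev (fun w => ev z m p (a :: (w ++ q))) g [] [] := by
        have h1 := ev_shift (fun w => ev z m p (w ++ q)) a g [] []
        rw [← h1]
        refine ev_congr g [] [] fun w _ => ?_
        simp
      have e8 : ev (fun w => ev z m p (w ++ q)) g [] [a] =
          ev (fun w => ev z m p (w ++ (a :: q))) g [] [] := by
        have h1 := ev_shiftR (fun w => ev z m p (w ++ q)) a g [] []
        simp only [List.nil_append] at h1
        rw [← h1]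
        refine ev_congr g [] [] fun w _ => ?_
        simp
      have j1 := J m hm (p ++ [a]) q
      have j2 := J m hm p (a :: q)
      have j3 := J (a :: m) (by simp) p q
      rw [ev_cons _ _ hg', ev_cons _ _ hg', ev_cons _ _ hg']
      simp only [List.nil_append]
      rw [e1, e2, j1, j2, j3, e3, e4, e5, e6, e7, e8]
      simp only [List.length_cons]
      generalize ev (fun w => ev z m (p ++ [a] ++ w) q) g [] [] = T1
      generalize ev (fun w => ev z m (p ++ (w ++ [a])) q) g [] [] = T2
      generalize ev (fun w => ev z m p (a :: (w ++ q))) g [] [] = T3
      generalize ev (fun w => ev z m p (w ++ a :: q)) g [] [] = T4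
      generalize ev (fun w => ev z m (p ++ [a]) (w ++ q)) g [] [] = M1
      generalize ev (fun w => ev z m (p ++ w) (a :: q)) g [] [] = M2
      generalize g.length = n
      generalize m.length = k
      rcases Nat.even_or_odd n with hn | hn <;> rcases Nat.even_or_odd k with hk | hk <;>
      simp only [pow_add, pow_mul, pow_one, hn.neg_one_pow, hk.neg_one_pow, one_pow, mul_one,
        one_mul, add_mul, mul_add] <;> ring

/-- the identity `β(u, l, g) = (-1)^(|g|+1) β(u, β(g), l)` -/
lemma ev_last (z : List L → K) (u : List L) (l : L) {g : List L} (hg : g ≠ [])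
    (p q : List L) :
    ev z (u ++ l :: g) p q =
      (-1) ^ (g.length + 1) * ev (fun w => ev z (u ++ w ++ [l]) p q) g [] [] := by
  induction u generalizing p q with
  | nil =>
    have J := ev_jac z g hg [l] (by simp) p q
    have h1 : ev (fun w => ev z [l] (p ++ w) q) g [] [] = ev z g p (l :: q) := by
      have := ev_ctx z p (l :: q) g [] []
      simp only [List.append_nil, List.nil_append] at this
      rw [← this]
      refine ev_congr g [] [] fun w _ => ?_
      rw [ev_single]; simp
    have h2 : ev (fun w => ev z [l] p (w ++ q)) g [] [] = ev z g (p ++ [l]) q := by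
      have := ev_ctx z (p ++ [l]) q g [] []
      simp only [List.append_nil, List.nil_append] at this
      rw [← this]
      refine ev_congr g [] [] fun w _ => ?_
      rw [ev_single]; simp
    simp only [List.nil_append]
    rw [J, h1, h2, ev_cons _ _ hg]
    simp only [List.length_singleton, mul_one]
    rcases Nat.even_or_odd g.length with hn | hn <;>
    simp only [pow_add, pow_one, hn.neg_one_pow] <;> ring
  | cons a u ih =>
    have hne : u ++ l :: g ≠ [] := by simp
    rw [List.cons_append, ev_cons _ _ hne, ih, ih]
    have e1 : ev (fun w => ev z (a :: u ++ w ++ [l]) p q) g [] [] =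
        ev (fun w => ev z (u ++ w ++ [l]) (p ++ [a]) q) g [] []
          + (-1) ^ (u.length + g.length + 1 + 1) *
            ev (fun w => ev z (u ++ w ++ [l]) p (a :: q)) g [] [] := by
      rw [← ev_lin]
      refine ev_congr g [] [] fun w hw => ?_
      have hl : w.length = g.length := by simpa using hw.length_eq
      have hne' : u ++ w ++ [l] ≠ [] := by simp
      rw [List.cons_append, List.cons_append, ev_cons _ _ hne']
      simp only [List.length_append, List.length_singleton, hl]
    rw [e1]
    simp only [List.length_append, List.length_cons]
    ring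

end Vale.Agent.P240.R2.H209
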